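import Mathlib

namespace Vale.Agent.Lib.P028

open Finset

/-- The numbers `x < N` lying in one of the residue classes `a mod d`, `(d, a)` in `F`. -/
def cov (N : ℕ) (F : Finset (ℕ × ℤ)) : Finset ℕ :=
  (range N).filter (fun x => ∃ p ∈ F, ((p.1 : ℤ) ∣ (x : ℤ) - p.2))

/-- The numbers `x < N` that are multiples of one of the moduli `d`, `(d, a)` in `F`. -/
def mul (N : ℕ) (F : Finset (ℕ × ℤ)) : Finset ℕ :=
  (range N).filter (fun x => ∃ p ∈ F, p.1 ∣ x)

lemma mem_cov {N : ℕ} {F : Finset (ℕ × ℤ)} {x : ℕ} :
    x ∈ cov N F ↔ x < N ∧ ∃ p ∈ F, ((p.1 : ℤ) ∣ (x : ℤ) - p.2) := by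
  simp [cov]

lemma mem_mul {N : ℕ} {F : Finset (ℕ × ℤ)} {x : ℕ} :
    x ∈ mul N F ↔ x < N ∧ ∃ p ∈ F, p.1 ∣ x := by
  simp [mul]

lemma cov_subset (N : ℕ) (F : Finset (ℕ × ℤ)) : cov N F ⊆ range N :=
  filter_subset _ _

lemma card_fibre (p M y : ℕ) (hM : 0 < M) (hy : y < M) :
    ((range (p * M)).filter (fun x => x % M = y)).card = p := by
  have h : (range (p * M)).filter (fun x => x % M = y)
      = (range p).image (fun j => y + j * M) := by
    ext x
    simp only [mem_filter, mem_range, mem_image]
    constructor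
    · rintro ⟨hx, hxy⟩
      refine ⟨x / M, ?_, ?_⟩
      · exact Nat.div_lt_of_lt_mul (by rwa [Nat.mul_comm] at hx)
      · rw [← hxy]; exact Nat.mod_add_div' x M
    · rintro ⟨j, hj, rfl⟩
      constructor
      · calc y + j * M < M + j * M := by omega
          _ = (j + 1) * M := by ring
          _ ≤ p * M := Nat.mul_le_mul_right M hj
      · rw [Nat.add_mul_mod_self_right, Nat.mod_eq_of_lt hy]
  rw [h, card_image_of_injective, card_range]
  intro a b hab
  simp only at hab
  exact Nat.eq_of_mul_eq_mul_right hM (by omega : a * M = b * M)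

lemma card_eq_sum_fibres (M : ℕ) (hM : 0 < M) (A : Finset ℕ) :
    A.card = ∑ y ∈ range M, (A.filter (fun x => x % M = y)).card := by
  apply card_eq_sum_card_fiberwise
  intro x _
  simp only [coe_range, Set.mem_Iio]
  exact Nat.mod_lt x hM

lemma sum_weights (M p : ℕ) (X₁ X₂ : Finset ℕ) (h₁ : X₁ ⊆ range M) (h₂ : X₂ ⊆ range M) :
    ∑ y ∈ range M, ((if y ∈ X₁ then p - 1 else 0) + (if y ∈ X₂ then 1 else 0))
      = (p - 1) * X₁.card + X₂.card := by
  rw [sum_add_distrib]
  congr 1
  · rw [← sum_filter, filter_mem_eq_inter, inter_eq_right.mpr h₁]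
    simp [mul_comm]
  · rw [← sum_filter, filter_mem_eq_inter, inter_eq_right.mpr h₂]
    simp


lemma fibre_form {p M y x : ℕ} (hx : x < p * M) (hxy : x % M = y) :
    ∃ j < p, x = y + j * M := by
  refine ⟨x / M, ?_, ?_⟩
  · exact Nat.div_lt_of_lt_mul (by rwa [Nat.mul_comm] at hx)
  · rw [← hxy]; exact (Nat.mod_add_div' x M).symm

lemma split_modulus {p M d : ℕ} (hp : p.Prime) (hd : d ∣ p * M) (hdM : ¬ d ∣ M) :
    ∃ d' c, d = p * d' ∧ M = d' * c ∧ ¬ p ∣ c := by
  obtain ⟨c, hc⟩ := hd
  have hpc : ¬ p ∣ c := by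
    rintro ⟨c₁, rfl⟩
    apply hdM
    refine ⟨c₁, ?_⟩
    have : p * M = p * (d * c₁) := by rw [hc]; ring
    exact Nat.eq_of_mul_eq_mul_left hp.pos this
  have hpd : p ∣ d := by
    have : p ∣ d * c := ⟨M, hc.symm⟩
    rcases (Nat.Prime.dvd_mul hp).mp this with h | h
    · exact h
    · exact absurd h hpc
  obtain ⟨d', rfl⟩ := hpd
  refine ⟨d', c, rfl, ?_, hpc⟩
  have : p * M = p * (d' * c) := by rw [hc]; ring
  exact Nat.eq_of_mul_eq_mul_left hp.pos this

lemma exists_lift {p c : ℕ} (hp : p.Prime) (hc : ¬ p ∣ c) (u : ℤ) :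
    ∃ j < p, (p : ℤ) ∣ u + (j : ℤ) * (c : ℤ) := by
  have : Fact p.Prime := ⟨hp⟩
  have hc0 : (c : ZMod p) ≠ 0 := by
    rw [Ne, ZMod.natCast_eq_zero_iff]; exact hc
  refine ⟨((-(u : ZMod p)) * (c : ZMod p)⁻¹).val, ZMod.val_lt _, ?_⟩
  rw [← ZMod.intCast_zmod_eq_zero_iff_dvd]
  push_cast
  rw [ZMod.natCast_zmod_val]
  field_simp
  ring

theorem rogers : ∀ (N : ℕ), 0 < N → ∀ (F : Finset (ℕ × ℤ)), (∀ q ∈ F, q.1 ∣ N) →
    (mul N F).card ≤ (cov N F).card := by
  intro N
  induction N using Nat.strong_induction_on with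
  | _ N ih =>
  intro hN F hF
  rcases Nat.lt_or_ge N 2 with h1 | h2
  · have hN1 : N = 1 := by omega
    subst hN1
    apply card_le_card
    intro x hx
    rw [mem_mul] at hx
    rw [mem_cov]
    obtain ⟨hx1, q, hq, -⟩ := hx
    refine ⟨hx1, q, hq, ?_⟩
    have : q.1 = 1 := Nat.dvd_one.mp (hF q hq)
    rw [this]; simp
  · have hp : (N.minFac).Prime := Nat.minFac_prime (by omega)
    obtain ⟨M, hM⟩ := Nat.minFac_dvd N
    set p := N.minFac with hpdef
    have hMpos : 0 < M := by
      rcases Nat.eq_zero_or_pos M with h | h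
      · subst h; simp at hM; omega
      · exact h
    have hMlt : M < N := by
      rw [hM]; nlinarith [hp.two_le]
    let F₁ := F.filter (fun q => q.1 ∣ M)
    let F₂ := F.filter (fun q => ¬ q.1 ∣ M)
    let G := F₁ ∪ F₂.image (fun q => (q.1 / p, q.2))
    have hF₁ : ∀ q ∈ F₁, q.1 ∣ M := fun q hq => (mem_filter.mp hq).2
    have hG : ∀ q ∈ G, q.1 ∣ M := by
      intro q hq
      rcases mem_union.mp hq with h | h
      · exact hF₁ q h
      · obtain ⟨r, hr, rfl⟩ := mem_image.mp h
        have hr' := mem_filter.mp hr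
        obtain ⟨d', c, hd, hMc, -⟩ :=
          split_modulus hp (by rw [← hM]; exact hF r hr'.1) hr'.2
        simp only
        rw [hd, Nat.mul_div_cancel_left _ hp.pos, hMc]
        exact Dvd.intro _ rfl
    have ih₁ := ih M hMlt hMpos F₁ hF₁
    have ihG := ih M hMlt hMpos G hG
    have hU : ∀ y ∈ range M, ((mul N F).filter (fun x => x % M = y)).card
        ≤ (if y ∈ mul M F₁ then p - 1 else 0) + (if y ∈ mul M G then 1 else 0) := by
      intro y hy
      have hyM : y < M := mem_range.mp hy
      by_cases h1 : y ∈ mul M F₁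
      · have hG1 : y ∈ mul M G := by
          rw [mem_mul] at h1 ⊢
          obtain ⟨h, q, hq, hd⟩ := h1
          exact ⟨h, q, mem_union_left _ hq, hd⟩
        rw [if_pos h1, if_pos hG1]
        calc ((mul N F).filter (fun x => x % M = y)).card
            ≤ ((range (p * M)).filter (fun x => x % M = y)).card := by
              apply card_le_card
              intro x hx
              rw [mem_filter] at hx ⊢
              refine ⟨?_, hx.2⟩
              have := (mem_mul.mp hx.1).1
              rw [mem_range]; rwa [hM] at this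
          _ = p := card_fibre p M y hMpos hyM
          _ = p - 1 + 1 := by have := hp.two_le; omega
      · rw [if_neg h1]
        by_cases h2 : y ∈ mul M G
        · rw [if_pos h2]
          simp only [zero_add]
          rw [card_le_one]
          have key : ∀ x ∈ (mul N F).filter (fun x => x % M = y),
              ∃ c : ℕ, ¬ p ∣ c ∧ N ∣ c * x := by
            intro x hx
            rw [mem_filter, mem_mul] at hx
            obtain ⟨⟨hxN, q, hq, hqx⟩, hxy⟩ := hx
            have hqM : ¬ q.1 ∣ M := by
              intro hqM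
              apply h1
              rw [mem_mul]
              refine ⟨hyM, q, mem_filter.mpr ⟨hq, hqM⟩, ?_⟩
              rw [← hxy]
              exact (Nat.dvd_mod_iff hqM).mpr hqx
            obtain ⟨d', c, hd, hMc, hpc⟩ :=
              split_modulus hp (by rw [← hM]; exact hF q hq) hqM
            refine ⟨c, hpc, ?_⟩
            obtain ⟨k, hk⟩ := hqx
            refine ⟨k, ?_⟩
            rw [hk, hM, hMc, hd]; ring
          intro x₁ hx₁ x₂ hx₂
          obtain ⟨c₁, hc₁, hN₁⟩ := key x₁ hx₁
          obtain ⟨c₂, hc₂, hN₂⟩ := key x₂ hx₂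
          have hx₁' := mem_filter.mp hx₁
          have hx₂' := mem_filter.mp hx₂
          have hx₁N := (mem_mul.mp hx₁'.1).1
          have hx₂N := (mem_mul.mp hx₂'.1).1
          rw [hM] at hx₁N hx₂N
          obtain ⟨j₁, hj₁, rfl⟩ := fibre_form hx₁N hx₁'.2
          obtain ⟨j₂, hj₂, rfl⟩ := fibre_form hx₂N hx₂'.2
          have h₁ : ((p : ℤ) * M) ∣ ((c₁ : ℤ) * ((y : ℤ) + j₁ * M)) := by
            have := Int.natCast_dvd_natCast.mpr hN₁
            rw [hM] at this
            push_cast at this
            exact this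
          have h₂ : ((p : ℤ) * M) ∣ ((c₂ : ℤ) * ((y : ℤ) + j₂ * M)) := by
            have := Int.natCast_dvd_natCast.mpr hN₂
            rw [hM] at this
            push_cast at this
            exact this
          have hdiv : ((p : ℤ) * M) ∣ ((c₁ : ℤ) * c₂ * ((j₂ : ℤ) - j₁)) * M := by
            have e : ((c₁ : ℤ) * c₂ * ((j₂ : ℤ) - j₁)) * M
                = (c₁ : ℤ) * ((c₂ : ℤ) * ((y : ℤ) + j₂ * M))
                  - (c₂ : ℤ) * ((c₁ : ℤ) * ((y : ℤ) + j₁ * M)) := by ring
            rw [e]
            exact dvd_sub (Dvd.dvd.mul_left h₂ _) (Dvd.dvd.mul_left h₁ _)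
          have hM0 : (M : ℤ) ≠ 0 := by exact_mod_cast hMpos.ne'
          have hdiv' : (p : ℤ) ∣ (c₁ : ℤ) * c₂ * ((j₂ : ℤ) - j₁) :=
            (mul_dvd_mul_iff_right hM0).mp hdiv
          have hpi : Prime (p : ℤ) := Nat.prime_iff_prime_int.mp hp
          have hjj : (p : ℤ) ∣ (j₂ : ℤ) - j₁ := by
            rcases hpi.dvd_mul.mp hdiv' with h | h
            · rcases hpi.dvd_mul.mp h with h' | h'
              · exact absurd (Int.natCast_dvd_natCast.mp h') hc₁
              · exact absurd (Int.natCast_dvd_natCast.mp h') hc₂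
            · exact h
          have hz : (j₂ : ℤ) - j₁ = 0 := by
            apply Int.eq_zero_of_abs_lt_dvd hjj
            rw [abs_lt]
            constructor <;> omega
          have : j₁ = j₂ := by omega
          rw [this]
        · rw [if_neg h2]
          simp only [add_zero, Nat.le_zero, card_eq_zero]
          rw [filter_eq_empty_iff]
          intro x hx hxy
          apply h2
          rw [mem_mul] at hx ⊢
          obtain ⟨hxN, q, hq, hqx⟩ := hx
          refine ⟨hyM, ?_⟩
          by_cases hqM : q.1 ∣ M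
          · exact ⟨q, mem_union_left _ (mem_filter.mpr ⟨hq, hqM⟩),
              by rw [← hxy]; exact (Nat.dvd_mod_iff hqM).mpr hqx⟩
          · obtain ⟨d', c, hd, hMc, hpc⟩ :=
              split_modulus hp (by rw [← hM]; exact hF q hq) hqM
            refine ⟨(q.1 / p, q.2),
              mem_union_right _ (mem_image.mpr ⟨q, mem_filter.mpr ⟨hq, hqM⟩, rfl⟩), ?_⟩
            simp only
            rw [hd, Nat.mul_div_cancel_left _ hp.pos]
            have hd'M : d' ∣ M := ⟨c, hMc⟩
            rw [← hxy]
            apply (Nat.dvd_mod_iff hd'M).mpr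
            exact dvd_trans ⟨p, by rw [hd]; ring⟩ hqx
    have hL : ∀ y ∈ range M,
        (if y ∈ cov M F₁ then p - 1 else 0) + (if y ∈ cov M G then 1 else 0)
        ≤ ((cov N F).filter (fun x => x % M = y)).card := by
      intro y hy
      have hyM : y < M := mem_range.mp hy
      by_cases h1 : y ∈ cov M F₁
      · have hG1 : y ∈ cov M G := by
          rw [mem_cov] at h1 ⊢
          obtain ⟨h, q, hq, hd⟩ := h1
          exact ⟨h, q, mem_union_left _ hq, hd⟩
        rw [if_pos h1, if_pos hG1]
        have hsub : (range (p * M)).filter (fun x => x % M = y)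
            ⊆ (cov N F).filter (fun x => x % M = y) := by
          intro x hx
          rw [mem_filter] at hx ⊢
          refine ⟨?_, hx.2⟩
          rw [mem_cov]
          refine ⟨by rw [hM]; exact mem_range.mp hx.1, ?_⟩
          obtain ⟨-, q, hq, hqy⟩ := mem_cov.mp h1
          refine ⟨q, (mem_filter.mp hq).1, ?_⟩
          have hqM : q.1 ∣ M := (mem_filter.mp hq).2
          obtain ⟨j, -, rfl⟩ := fibre_form (mem_range.mp hx.1) hx.2
          have e : ((y + j * M : ℕ) : ℤ) - q.2 = ((y : ℤ) - q.2) + (j : ℤ) * (M : ℤ) := by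
            push_cast; ring
          rw [e]
          exact dvd_add hqy (Dvd.dvd.mul_left (Int.natCast_dvd_natCast.mpr hqM) _)
        calc p - 1 + 1 = p := by have := hp.two_le; omega
          _ = ((range (p * M)).filter (fun x => x % M = y)).card :=
              (card_fibre p M y hMpos hyM).symm
          _ ≤ _ := card_le_card hsub
      · rw [if_neg h1]
        by_cases h2 : y ∈ cov M G
        · rw [if_pos h2]
          simp only [zero_add]
          rw [Nat.one_le_iff_ne_zero, Ne, card_eq_zero, ← Ne, ← nonempty_iff_ne_empty]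
          obtain ⟨-, q, hq, hqy⟩ := mem_cov.mp h2
          rcases mem_union.mp hq with h | h
          · exact absurd (mem_cov.mpr ⟨hyM, q, h, hqy⟩) h1
          · obtain ⟨r, hr, rfl⟩ := mem_image.mp h
            have hr' := mem_filter.mp hr
            obtain ⟨d', c, hd, hMc, hpc⟩ :=
              split_modulus hp (by rw [← hM]; exact hF r hr'.1) hr'.2
            simp only at hqy
            rw [hd, Nat.mul_div_cancel_left _ hp.pos] at hqy
            obtain ⟨u, hu⟩ := hqy
            obtain ⟨j, hj, hju⟩ := exists_lift hp hpc u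
            refine ⟨y + j * M, ?_⟩
            rw [mem_filter, mem_cov]
            refine ⟨⟨?_, r, hr'.1, ?_⟩, ?_⟩
            · rw [hM]
              calc y + j * M < M + j * M := by omega
                _ = (j + 1) * M := by ring
                _ ≤ p * M := Nat.mul_le_mul_right M hj
            · obtain ⟨t, ht⟩ := hju
              refine ⟨t, ?_⟩
              rw [hd]
              push_cast
              have hMc' : (M : ℤ) = (d' : ℤ) * c := by exact_mod_cast hMc
              rw [hMc']
              linear_combination hu + (d' : ℤ) * ht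
            · rw [Nat.add_mul_mod_self_right, Nat.mod_eq_of_lt hyM]
        · rw [if_neg h2]; simp
    calc (mul N F).card = ∑ y ∈ range M, ((mul N F).filter (fun x => x % M = y)).card :=
          card_eq_sum_fibres M hMpos _
      _ ≤ ∑ y ∈ range M,
            ((if y ∈ mul M F₁ then p - 1 else 0) + (if y ∈ mul M G then 1 else 0)) :=
          sum_le_sum hU
      _ = (p - 1) * (mul M F₁).card + (mul M G).card :=
          sum_weights M p _ _ (filter_subset _ _) (filter_subset _ _)
      _ ≤ (p - 1) * (cov M F₁).card + (cov M G).card :=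
          Nat.add_le_add (Nat.mul_le_mul_left _ ih₁) ihG
      _ = ∑ y ∈ range M,
            ((if y ∈ cov M F₁ then p - 1 else 0) + (if y ∈ cov M G then 1 else 0)) :=
          (sum_weights M p _ _ (filter_subset _ _) (filter_subset _ _)).symm
      _ ≤ ∑ y ∈ range M, ((cov N F).filter (fun x => x % M = y)).card := sum_le_sum hL
      _ = (cov N F).card := (card_eq_sum_fibres M hMpos _).symm


theorem totient_sum_le_cov (N : ℕ) (hN : 0 < N) (Q : Finset ℕ) (hQ : ∀ q ∈ Q, q ∣ N)
    (i : ℕ → ℤ) :
    ∑ q ∈ Q, Nat.totient q ≤ (cov N (Q.image (fun q => (N / q, i q)))).card := by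
  refine le_trans ?_ (rogers N hN _ ?_)
  · have hdisj : ∀ q ∈ Q, ∀ q' ∈ Q, q ≠ q' →
        Disjoint ((range N).filter (fun k => N.gcd k = N / q))
          ((range N).filter (fun k => N.gcd k = N / q')) := by
      intro q hq q' hq' hne
      rw [disjoint_left]
      intro k hk hk'
      apply hne
      have e1 := (mem_filter.mp hk).2
      have e2 := (mem_filter.mp hk').2
      have e3 : N / q = N / q' := by rw [← e1, ← e2]
      calc q = N / (N / q) := (Nat.div_div_self (hQ q hq) hN.ne').symm
        _ = N / (N / q') := by rw [e3]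
        _ = q' := Nat.div_div_self (hQ q' hq') hN.ne'
    calc ∑ q ∈ Q, Nat.totient q
        = ∑ q ∈ Q, ((range N).filter (fun k => N.gcd k = N / q)).card := by
          apply sum_congr rfl
          intro q hq
          have h := Nat.totient_div_of_dvd (Nat.div_dvd_of_dvd (hQ q hq))
          rw [Nat.div_div_self (hQ q hq) hN.ne'] at h
          exact h
      _ = (Q.biUnion (fun q => (range N).filter (fun k => N.gcd k = N / q))).card :=
          (card_biUnion hdisj).symm
      _ ≤ (mul N (Q.image (fun q => (N / q, i q)))).card := by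
          apply card_le_card
          intro k hk
          rw [mem_biUnion] at hk
          obtain ⟨q, hq, hk⟩ := hk
          rw [mem_filter] at hk
          rw [mem_mul]
          refine ⟨mem_range.mp hk.1, (N / q, i q), mem_image.mpr ⟨q, hq, rfl⟩, ?_⟩
          simp only
          rw [← hk.2]
          exact Nat.gcd_dvd_right N k
  · intro p hp
    obtain ⟨q, hq, rfl⟩ := mem_image.mp hp
    exact Nat.div_dvd_of_dvd (hQ q hq)

end Vale.Agent.Lib.P028
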