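import Mathlib
import Vale.Agent.Lib.P028.Rogers

namespace Vale.Agent.Lib.P028

open Finset MeasureTheory

lemma floor_lt_of_mem_Ico {L : ℕ} (hL : 0 < L) {x : ℝ} (hx : x ∈ Set.Ico (0:ℝ) 1) :
    ⌊(L:ℝ) * x⌋₊ < L := by
  have hLpos : (0:ℝ) < L := by exact_mod_cast hL
  rw [Nat.floor_lt (mul_nonneg hLpos.le hx.1)]
  nlinarith [hx.2]

lemma volume_cells (L : ℕ) (hL : 0 < L) (C : Finset ℕ) (hC : C ⊆ range L) :
    volume {x : ℝ | x ∈ Set.Ico (0:ℝ) 1 ∧ ⌊(L:ℝ) * x⌋₊ ∈ C}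
      = ENNReal.ofReal ((C.card : ℝ) / L) := by
  have hLpos : (0:ℝ) < L := by exact_mod_cast hL
  have hset : {x : ℝ | x ∈ Set.Ico (0:ℝ) 1 ∧ ⌊(L:ℝ) * x⌋₊ ∈ C}
      = ⋃ i ∈ C, Set.Ico ((i:ℝ) / L) (((i:ℝ) + 1) / L) := by
    ext x
    simp only [Set.mem_ofPred_eq, Set.mem_iUnion, Set.mem_Ico, exists_prop]
    constructor
    · rintro ⟨⟨hx0, hx1⟩, hxC⟩
      refine ⟨_, hxC, ?_, ?_⟩
      · rw [div_le_iff₀ hLpos]
        have := Nat.floor_le (mul_nonneg hLpos.le hx0)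
        linarith [mul_comm (L:ℝ) x]
      · rw [lt_div_iff₀ hLpos]
        have := Nat.lt_floor_add_one ((L:ℝ) * x)
        linarith [mul_comm (L:ℝ) x]
    · rintro ⟨i, hi, hx0, hx1⟩
      have hiL : i < L := mem_range.mp (hC hi)
      rw [div_le_iff₀ hLpos] at hx0
      rw [lt_div_iff₀ hLpos] at hx1
      have hi0 : (0:ℝ) ≤ i := Nat.cast_nonneg i
      have hx0' : 0 ≤ x := by
        by_contra h
        have : x * L < 0 := mul_neg_of_neg_of_pos (not_le.mp h) hLpos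
        linarith
      have hiL' : (i:ℝ) + 1 ≤ L := by exact_mod_cast hiL
      refine ⟨⟨hx0', ?_⟩, ?_⟩
      · by_contra h
        have h' : 1 ≤ x := not_lt.mp h
        nlinarith
      · have : ⌊(L:ℝ) * x⌋₊ = i := by
          rw [Nat.floor_eq_iff (mul_nonneg hLpos.le hx0')]
          constructor <;> linarith [mul_comm (L:ℝ) x]
        rw [this]; exact hi
  rw [hset, measure_biUnion_finset]
  · have : ∀ i ∈ C, volume (Set.Ico ((i:ℝ) / L) (((i:ℝ) + 1) / L)) = ENNReal.ofReal (1 / L) := by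
      intro i _
      rw [Real.volume_Ico]
      congr 1
      field_simp
      ring
    rw [sum_congr rfl this, sum_const, nsmul_eq_mul]
    rw [← ENNReal.ofReal_natCast C.card, ← ENNReal.ofReal_mul (Nat.cast_nonneg _)]
    congr 1
    ring
  · intro i _ j _ hij
    rw [Function.onFun, Set.disjoint_left]
    rintro x ⟨h1, h2⟩ ⟨h3, h4⟩
    apply hij
    rw [div_le_iff₀ hLpos] at h1 h3
    rw [lt_div_iff₀ hLpos] at h2 h4
    have h5 : (i:ℝ) < j + 1 := by linarith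
    have h6 : (j:ℝ) < i + 1 := by linarith
    have h5' : i < j + 1 := by exact_mod_cast h5
    have h6' : j < i + 1 := by exact_mod_cast h6
    omega
  · intro i _
    exact measurableSet_Ico


lemma cell_subset (N : ℕ) (hN : 0 < N) (q : ℕ) (hq0 : 0 < q) (hq : q ∣ N) (g x : ℝ) (hx : 0 ≤ x)
    (h : ((N / q : ℕ) : ℤ) ∣ ((⌊(N:ℝ) * x⌋₊ : ℕ) : ℤ) - ⌊(N:ℝ) * g / q⌋) :
    ∃ a : ℤ, |(q:ℝ) * x - a - g| < (q:ℝ) / N := by
  obtain ⟨a, ha⟩ := h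
  refine ⟨a, ?_⟩
  have hNpos : (0:ℝ) < N := by exact_mod_cast hN
  have hqpos : (0:ℝ) < q := by exact_mod_cast hq0
  have h1 : ((⌊(N:ℝ) * x⌋₊ : ℕ) : ℝ) ≤ (N:ℝ) * x := Nat.floor_le (mul_nonneg hNpos.le hx)
  have h2 : (N:ℝ) * x < ((⌊(N:ℝ) * x⌋₊ : ℕ) : ℝ) + 1 := Nat.lt_floor_add_one _
  have h3 : ((⌊(N:ℝ) * g / q⌋ : ℤ) : ℝ) ≤ (N:ℝ) * g / q := Int.floor_le _
  have h4 : (N:ℝ) * g / q < ((⌊(N:ℝ) * g / q⌋ : ℤ) : ℝ) + 1 := Int.lt_floor_add_one _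
  have h5 : ((⌊(N:ℝ) * x⌋₊ : ℕ) : ℝ) - ((⌊(N:ℝ) * g / q⌋ : ℤ) : ℝ) = ((N:ℝ) / q) * a := by
    have h6 : (((N / q : ℕ) : ℤ) : ℝ) = (N:ℝ) / q := by
      rw [Int.cast_natCast, Nat.cast_div hq hqpos.ne']
    have := congrArg (fun z : ℤ => (z : ℝ)) ha
    simp only [Int.cast_sub, Int.cast_mul, Int.cast_natCast] at this
    rw [this]
    rw [Int.cast_natCast] at h6
    rw [h6]
  have key : (q:ℝ) * x - a - g
      = ((q:ℝ) / N) * ((N:ℝ) * x - (N:ℝ) * g / q - ((N:ℝ) / q) * a) := by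
    field_simp
    ring
  rw [key, abs_mul, abs_of_pos (div_pos hqpos hNpos)]
  have hlt : |(N:ℝ) * x - (N:ℝ) * g / q - ((N:ℝ) / q) * a| < 1 := by
    rw [abs_lt]
    constructor <;> linarith
  calc (q:ℝ) / N * |(N:ℝ) * x - (N:ℝ) * g / q - ((N:ℝ) / q) * a|
      < (q:ℝ) / N * 1 := mul_lt_mul_of_pos_left hlt (div_pos hqpos hNpos)
    _ = (q:ℝ) / N := mul_one _

end Vale.Agent.Lib.P028
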