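import Mathlib
import Vale.Agent.Lib.P028.Rogers
import Vale.Agent.Lib.P028.Cells

namespace Vale.Agent.Lib.P028

open Finset MeasureTheory

/-- The points of `[0,1)` whose `j`-th mixed-radix digit (radices `N (j+1) / N j`) lies in `T`. -/
def digitSet (N : ℕ → ℕ) (T : ℕ → Finset ℕ) (j : ℕ) : Set ℝ :=
  {x : ℝ | x ∈ Set.Ico (0:ℝ) 1 ∧ ⌊(N (j + 1) : ℝ) * x⌋₊ % (N (j + 1) / N j) ∈ T j}

lemma digits_step (A P : ℕ) (hA : 0 < A) (hP : 0 < P) (C T : Finset ℕ)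
    (hC : C ⊆ range A) (hT : T ⊆ range P) :
    (C ×ˢ T).image (fun ar : ℕ × ℕ => ar.1 * P + ar.2) ⊆ range (A * P) ∧
    (∀ i : ℕ, i ∈ (C ×ˢ T).image (fun ar : ℕ × ℕ => ar.1 * P + ar.2) ↔ (i / P ∈ C ∧ i % P ∈ T)) ∧
    (((C ×ˢ T).image (fun ar : ℕ × ℕ => ar.1 * P + ar.2)).card : ℝ) / ((A * P : ℕ) : ℝ)
      = (C.card : ℝ) / A * ((T.card : ℝ) / P) := by
  have hdivmod : ∀ a r : ℕ, r < P → (a * P + r) / P = a ∧ (a * P + r) % P = r := by
    intro a r hr
    constructor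
    · rw [Nat.mul_comm, Nat.mul_add_div hP, Nat.div_eq_of_lt hr, add_zero]
    · rw [Nat.mul_comm, Nat.mul_add_mod, Nat.mod_eq_of_lt hr]
  refine ⟨?_, ?_, ?_⟩
  · intro i hi
    obtain ⟨⟨a, r⟩, har, rfl⟩ := mem_image.mp hi
    rw [mem_product] at har
    have ha : a < A := mem_range.mp (hC har.1)
    have hr : r < P := mem_range.mp (hT har.2)
    rw [mem_range]
    calc a * P + r < a * P + P := by omega
      _ = (a + 1) * P := by ring
      _ ≤ A * P := Nat.mul_le_mul_right P ha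
  · intro i
    constructor
    · intro hi
      obtain ⟨⟨a, r⟩, har, rfl⟩ := mem_image.mp hi
      rw [mem_product] at har
      have hr : r < P := mem_range.mp (hT har.2)
      obtain ⟨h1, h2⟩ := hdivmod a r hr
      simp only
      rw [h1, h2]
      exact har
    · rintro ⟨h1, h2⟩
      exact mem_image.mpr ⟨(i / P, i % P), mem_product.mpr ⟨h1, h2⟩, Nat.div_add_mod' i P⟩
  · rw [card_image_of_injOn, card_product]
    · have hA' : (A:ℝ) ≠ 0 := by exact_mod_cast hA.ne'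
      have hP' : (P:ℝ) ≠ 0 := by exact_mod_cast hP.ne'
      push_cast
      field_simp
    · rintro ⟨a, r⟩ har ⟨a', r'⟩ har' h
      rw [mem_coe, mem_product] at har har'
      have hr : r < P := mem_range.mp (hT har.2)
      have hr' : r' < P := mem_range.mp (hT har'.2)
      simp only at h
      obtain ⟨h1, h2⟩ := hdivmod a r hr
      obtain ⟨h1', h2'⟩ := hdivmod a' r' hr'
      rw [h] at h1 h2
      rw [Prod.mk.injEq]
      exact ⟨h1.symm.trans h1', h2.symm.trans h2'⟩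

lemma digits_inv (N : ℕ → ℕ) (hN : ∀ j, 0 < N j) (hdiv : ∀ j, N j ∣ N (j + 1))
    (T : ℕ → Finset ℕ) (hT : ∀ j, T j ⊆ range (N (j + 1) / N j)) (b : ℕ) :
    ∃ C : Finset ℕ, C ⊆ range (N b) ∧
      (∀ x ∈ Set.Ico (0:ℝ) 1,
        (∀ j < b, ⌊(N (j + 1) : ℝ) * x⌋₊ % (N (j + 1) / N j) ∈ T j) ↔ ⌊(N b : ℝ) * x⌋₊ ∈ C) ∧
      (C.card : ℝ) / N b
        = ∏ j ∈ range b, ((T j).card : ℝ) / ((N (j + 1) / N j : ℕ) : ℝ) := by
  induction b with
  | zero =>
    refine ⟨range (N 0), subset_rfl, ?_, ?_⟩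
    · intro x hx
      constructor
      · intro _
        exact mem_range.mpr (floor_lt_of_mem_Ico (hN 0) hx)
      · intro _ j hj
        exact absurd hj (Nat.not_lt_zero j)
    · have : (N 0 : ℝ) ≠ 0 := by exact_mod_cast (hN 0).ne'
      simp [this]
  | succ b ih =>
    obtain ⟨C, hC, hiff, hcard⟩ := ih
    have hPpos : 0 < N (b + 1) / N b :=
      Nat.div_pos (Nat.le_of_dvd (hN (b + 1)) (hdiv b)) (hN b)
    have hNP : N (b + 1) = N b * (N (b + 1) / N b) := (Nat.mul_div_cancel' (hdiv b)).symm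
    obtain ⟨s1, s2, s3⟩ := digits_step (N b) (N (b + 1) / N b) (hN b) hPpos C (T b) hC (hT b)
    refine ⟨(C ×ˢ T b).image (fun ar : ℕ × ℕ => ar.1 * (N (b + 1) / N b) + ar.2), ?_, ?_, ?_⟩
    · rw [← hNP] at s1; exact s1
    · intro x hx
      have hfloor : ⌊(N (b + 1) : ℝ) * x⌋₊ / (N (b + 1) / N b) = ⌊(N b : ℝ) * x⌋₊ := by
        rw [← Nat.floor_div_natCast]
        congr 1
        have hP' : (((N (b + 1) / N b : ℕ)) : ℝ) ≠ 0 := by exact_mod_cast hPpos.ne'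
        have e : (N (b + 1) : ℝ) = (N b : ℝ) * ((N (b + 1) / N b : ℕ) : ℝ) := by
          exact_mod_cast hNP
        rw [div_eq_iff hP', e]; ring
      rw [s2, hfloor]
      constructor
      · intro h
        exact ⟨(hiff x hx).mp (fun j hj => h j (Nat.lt_succ_of_lt hj)), h b (Nat.lt_succ_self b)⟩
      · rintro ⟨h1, h2⟩ j hj
        rcases Nat.lt_succ_iff_lt_or_eq.mp hj with hj' | rfl
        · exact (hiff x hx).mpr h1 j hj'
        · exact h2
    · rw [prod_range_succ, ← hcard]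
      have e : (N (b + 1) : ℝ) = ((N b * (N (b + 1) / N b) : ℕ) : ℝ) := by
        exact_mod_cast hNP
      rw [e]
      exact s3

lemma volume_digits (N : ℕ → ℕ) (hN : ∀ j, 0 < N j) (hdiv : ∀ j, N j ∣ N (j + 1))
    (T : ℕ → Finset ℕ) (hT : ∀ j, T j ⊆ range (N (j + 1) / N j)) (b : ℕ) :
    volume {x : ℝ | x ∈ Set.Ico (0:ℝ) 1 ∧
        ∀ j < b, ⌊(N (j + 1) : ℝ) * x⌋₊ % (N (j + 1) / N j) ∈ T j}
      = ENNReal.ofReal (∏ j ∈ range b, ((T j).card : ℝ) / ((N (j + 1) / N j : ℕ) : ℝ)) := by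
  obtain ⟨C, hC, hiff, hcard⟩ := digits_inv N hN hdiv T hT b
  have hset : {x : ℝ | x ∈ Set.Ico (0:ℝ) 1 ∧
        ∀ j < b, ⌊(N (j + 1) : ℝ) * x⌋₊ % (N (j + 1) / N j) ∈ T j}
      = {x : ℝ | x ∈ Set.Ico (0:ℝ) 1 ∧ ⌊(N b : ℝ) * x⌋₊ ∈ C} := by
    ext x
    constructor
    · rintro ⟨hx, h⟩
      exact ⟨hx, (hiff x hx).mp h⟩
    · rintro ⟨hx, h⟩
      exact ⟨hx, (hiff x hx).mpr h⟩
  rw [hset, volume_cells (N b) (hN b) C hC, hcard]


lemma measurableSet_digitSet (N : ℕ → ℕ) (T : ℕ → Finset ℕ) (j : ℕ) :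
    MeasurableSet (digitSet N T j) := by
  have hf : Measurable (fun x : ℝ => ⌊(N (j + 1) : ℝ) * x⌋₊) :=
    Nat.measurable_floor.comp (measurable_const_mul _)
  have h : digitSet N T j = Set.Ico (0:ℝ) 1 ∩
      (fun x : ℝ => ⌊(N (j + 1) : ℝ) * x⌋₊) ⁻¹' {i | i % (N (j + 1) / N j) ∈ T j} := by
    ext x; rfl
  rw [h]
  exact measurableSet_Ico.inter (hf (MeasurableSet.of_discrete))

lemma digitSet_subset (N : ℕ → ℕ) (T : ℕ → Finset ℕ) (j : ℕ) :
    digitSet N T j ⊆ Set.Ico (0:ℝ) 1 := fun _ hx => hx.1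

lemma restrict_biInter_digitSet (N : ℕ → ℕ) (hN : ∀ j, 0 < N j) (hdiv : ∀ j, N j ∣ N (j + 1))
    (T : ℕ → Finset ℕ) (hT : ∀ j, T j ⊆ range (N (j + 1) / N j)) (s : Finset ℕ) :
    (volume.restrict (Set.Ico (0:ℝ) 1)) (⋂ j ∈ s, digitSet N T j)
      = ENNReal.ofReal (∏ j ∈ s, ((T j).card : ℝ) / ((N (j + 1) / N j : ℕ) : ℝ)) := by
  classical
  have hPpos : ∀ j, 0 < N (j + 1) / N j := fun j =>
    Nat.div_pos (Nat.le_of_dvd (hN (j + 1)) (hdiv j)) (hN j)
  rw [Measure.restrict_apply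
    (Finset.measurableSet_biInter s (fun j _ => measurableSet_digitSet N T j))]
  let T' : ℕ → Finset ℕ := fun j => if j ∈ s then T j else range (N (j + 1) / N j)
  have hT' : ∀ j, T' j ⊆ range (N (j + 1) / N j) := by
    intro j
    by_cases hjs : j ∈ s
    · simp only [T', if_pos hjs]; exact hT j
    · simp only [T', if_neg hjs]; exact subset_rfl
  have hset : (⋂ j ∈ s, digitSet N T j) ∩ Set.Ico (0:ℝ) 1
      = {x : ℝ | x ∈ Set.Ico (0:ℝ) 1 ∧
          ∀ j < s.sup id + 1, ⌊(N (j + 1) : ℝ) * x⌋₊ % (N (j + 1) / N j) ∈ T' j} := by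
    ext x
    constructor
    · rintro ⟨h, hx⟩
      refine ⟨hx, fun j _ => ?_⟩
      rw [Set.mem_iInter₂] at h
      by_cases hjs : j ∈ s
      · simp only [T', if_pos hjs]; exact (h j hjs).2
      · simp only [T', if_neg hjs]; exact mem_range.mpr (Nat.mod_lt _ (hPpos j))
    · rintro ⟨hx, h⟩
      refine ⟨?_, hx⟩
      rw [Set.mem_iInter₂]
      intro j hjs
      refine ⟨hx, ?_⟩
      have := h j (Nat.lt_succ_of_le (Finset.le_sup (f := id) hjs))
      simpa only [T', if_pos hjs] using this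
  rw [hset, volume_digits N hN hdiv T' hT']
  congr 1
  have hfac : ∀ j ∈ range (s.sup id + 1),
      ((T' j).card : ℝ) / ((N (j + 1) / N j : ℕ) : ℝ)
        = if j ∈ s then ((T j).card : ℝ) / ((N (j + 1) / N j : ℕ) : ℝ) else 1 := by
    intro j _
    by_cases hjs : j ∈ s
    · simp only [T', if_pos hjs]
    · simp only [T', if_neg hjs, card_range]
      exact div_self (by exact_mod_cast (hPpos j).ne')
  rw [prod_congr rfl hfac, prod_ite_mem]
  congr 1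
  rw [inter_eq_right]
  intro j hj
  exact mem_range.mpr (Nat.lt_succ_of_le (Finset.le_sup (f := id) hj))

end Vale.Agent.Lib.P028
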